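import Vale.Agent.P290.K.AllDefs

/-!
# P290: elliptic K3 surfaces, the goal statement (helper95)
-/

namespace Vale.Agent.P290.H95

open Vale.Agent.P290.All

/-- The K3 surface `X` is elliptic: it has a nonconstant holomorphic map to a Riemann surface.
(The Stein factorisation of such a map is a fibration onto the projective line whose general fibre
is an elliptic curve, and conversely.) -/
def Elliptic (X : K3) : Prop :=
  ∃ (C : RS) (π : X.X → C.C), (∀ x, HolC π x) ∧ ∃ x y, π x ≠ π y

/-- The goal. -/
def Goal : Prop := ∀ X : K3, Elliptic X → IsOka X.X

end Vale.Agent.P290.H95
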