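import Vale.Agent.P290.H805.Fam
import Vale.Agent.P290.H95.Goal

/-!
# P290, Phase 2 (helper95): holomorphic families of K3 surfaces, definitions

`K3Family V D E` : a holomorphic family of K3 surfaces with total space `E` over the open subset `D`
of the complex normed space `V`. `InfTrivial F t v` : the Kodaira-Spencer class of the family at `t`
in the direction `v` vanishes. `K3Family.k3 t` : the member over `t` as an `All.K3`.
-/

open scoped Manifold ContDiff Topology
open Set Filter Vale.Agent.P290.All Vale.Agent.P290.H805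

namespace Vale.Agent.P290.H95

section
variable {V : Type} [NormedAddCommGroup V] [NormedSpace ℂ V] {D : Set V}
  {E : Type} [TopologicalSpace E]

open Classical in
/-- the fibre component of the transition map between the local trivialisations at `x` and `x'` -/
noncomputable def trn (F : Family D E) (x x' : E) (q : V × C2) : C2 :=
  if h : q.1 ∈ D then (F.triv x' ((F.triv x).symm (⟨q.1, h⟩, q.2))).2 else 0

omit [NormedSpace ℂ V] in
theorem trn_apply (F : Family D E) (x x' : E) (t : D) (w : C2) :
    trn F x x' (t, w) = (F.triv x' ((F.triv x).symm (t, w))).2 := by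
  simp [trn]

end

/-- A holomorphic family of K3 surfaces over the open subset `D` of `V`: a family of complex surfaces
with transition maps holomorphic in `(t, w)`, whose fibres are compact and simply connected, with a
nowhere vanishing holomorphic relative two-form `vol x (t, w) dw₁ ∧ dw₂`. -/
structure K3Family (V : Type) [NormedAddCommGroup V] [NormedSpace ℂ V] (D : Set V) (E : Type)
    [TopologicalSpace E] where
  F : Family D E
  hol : ∀ (x x' : E) (t : D) (w : C2), (t, w) ∈ (F.triv x).target →
    (F.triv x).symm (t, w) ∈ (F.triv x').source → AnalyticAt ℂ (trn F x x') (t, w)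
  compact : ∀ t, CompactSpace (Fib F t)
  sc : ∀ t, SimplyConnectedSpace (Fib F t)
  vol : E → V × C2 → ℂ
  vol_hol : ∀ (x : E) (t : D) (w : C2), (t, w) ∈ (F.triv x).target →
    AnalyticAt ℂ (vol x) (t, w) ∧ vol x (t, w) ≠ 0
  vol_law : ∀ (x x' : E) (t : D) (w : C2), (t, w) ∈ (F.triv x).target →
    (F.triv x).symm (t, w) ∈ (F.triv x').source →
    vol x (t, w) = vol x' (t, trn F x x' (t, w)) *
      (fderiv ℂ (fun u : C2 => trn F x x' (t, u)) w).det

/-- The family is infinitesimally trivial at `t` in the direction `v` (its Kodaira-Spencer class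
vanishes): the vector `v` lifts to a holomorphic vector field `(v, θ x)` of the total space along
the fibre over `t`. -/
def InfTrivial {V : Type} [NormedAddCommGroup V] [NormedSpace ℂ V] {D : Set V} {E : Type}
    [TopologicalSpace E] (F : Family D E) (t : D) (v : V) : Prop :=
  ∃ θ : E → C2 → C2, (∀ x w, (t, w) ∈ (F.triv x).target → AnalyticAt ℂ (θ x) w) ∧
    ∀ x x' w, (t, w) ∈ (F.triv x).target → (F.triv x).symm (t, w) ∈ (F.triv x').source →
      fderiv ℂ (trn F x x') (t, w) (v, θ x w) = θ x' (trn F x x' (t, w))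

namespace K3Family

variable {V : Type} [NormedAddCommGroup V] [NormedSpace ℂ V] {D : Set V}
  {E : Type} [TopologicalSpace E] [T2Space E]

omit [NormedSpace ℂ V] [T2Space E] in
theorem val_injective {F : Family D E} {t : D} : Function.Injective (Fib.val : Fib F t → E) :=
  fun _ _ h => Fib.ext h

instance {F : Family D E} {t : D} : T2Space (Fib F t) :=
  T2Space.of_injective_continuous val_injective continuous_val

omit [NormedSpace ℂ V] [T2Space E] in
theorem mem_target {F : Family D E} {t : D} (x : Fib F t) {w : C2}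
    (h : w ∈ (fibChart F t x).target) : (t, w) ∈ (F.triv x.1).target := h

open Classical in
/-- the coefficient of the two-form of the member over `t` -/
noncomputable def fvol (𝓕 : K3Family V D E) (t : D) (e : OpenPartialHomeomorph (Fib 𝓕.F t) C2)
    (w : C2) : ℂ :=
  if h : ∃ x, fibChart 𝓕.F t x = e then 𝓕.vol h.choose.1 (t, w) else 1

omit [T2Space E] in
/-- two points with the same chart of the fibre give the same coefficient -/
theorem vol_eq (𝓕 : K3Family V D E) (t : D) {x x' : Fib 𝓕.F t}
    (h : fibChart 𝓕.F t x = fibChart 𝓕.F t x') {w : C2} (hw : w ∈ (fibChart 𝓕.F t x).target) :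
    𝓕.vol x.1 (t, w) = 𝓕.vol x'.1 (t, w) := by
  have h1 : (t, w) ∈ (𝓕.F.triv x.1).target := hw
  have h2 : (𝓕.F.triv x.1).symm (t, w) ∈ (𝓕.F.triv x'.1).source := by
    have h3 := (fibChart 𝓕.F t x).map_target hw
    rw [h] at h3
    rw [h] at hw
    have h4 : ((fibChart 𝓕.F t x').symm w).1 ∈ (𝓕.F.triv x'.1).source := h3
    rwa [← h, fibChart_symm_val 𝓕.F t x h1] at h4
  have h5 : ∀ u, u ∈ (fibChart 𝓕.F t x).target → trn 𝓕.F x.1 x'.1 (t, u) = u := by
    intro u hu
    have hu1 : (t, u) ∈ (𝓕.F.triv x.1).target := hu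
    rw [trn_apply, ← fibChart_symm_val 𝓕.F t x hu1, ← fibChart_apply, ← h]
    exact (fibChart 𝓕.F t x).right_inv hu
  have h6 : (fun u : C2 => trn 𝓕.F x.1 x'.1 (t, u)) =ᶠ[𝓝 w] id := by
    filter_upwards [(fibChart 𝓕.F t x).open_target.mem_nhds hw] with u hu
    exact h5 u hu
  have h7 := 𝓕.vol_law x.1 x'.1 t w h1 h2
  have h8 : (ContinuousLinearMap.id ℂ C2).det = 1 := LinearMap.det_id
  rw [h6.fderiv_eq, fderiv_id, h5 w hw, h8, mul_one] at h7
  exact h7

omit [T2Space E] in
theorem fvol_eq (𝓕 : K3Family V D E) (t : D) (x : Fib 𝓕.F t) {w : C2}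
    (hw : w ∈ (fibChart 𝓕.F t x).target) : 𝓕.fvol t (fibChart 𝓕.F t x) w = 𝓕.vol x.1 (t, w) := by
  have h : ∃ x', fibChart 𝓕.F t x' = fibChart 𝓕.F t x := ⟨x, rfl⟩
  rw [fvol, dif_pos h]
  exact vol_eq 𝓕 t h.choose_spec (by rw [h.choose_spec]; exact hw)

/-- the member over `t` -/
noncomputable def k3 (𝓕 : K3Family V D E) (t : D) : K3 :=
  { X := Fib 𝓕.F t
    compact := 𝓕.compact t
    sc := 𝓕.sc t
    vol := 𝓕.fvol t
    holo := by
      rintro e ⟨x, rfl⟩
      refine ⟨?_, ?_⟩
      · intro w hw
        have hw1 : (t, w) ∈ (𝓕.F.triv x.1).target := hw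
        have h1 := (𝓕.vol_hol x.1 t w hw1).1
        have h2 : AnalyticAt ℂ (fun u : C2 => 𝓕.vol x.1 (t, u)) w :=
          AnalyticAt.fun_comp (f := fun u : C2 => ((t : V), u)) h1
            (analyticAt_const.prod analyticAt_id)
        have h3 : (fun u : C2 => 𝓕.vol x.1 (t, u)) =ᶠ[𝓝 w]
            𝓕.fvol t (fibChart 𝓕.F t x) := by
          filter_upwards [(fibChart 𝓕.F t x).open_target.mem_nhds hw] with u hu
          exact (fvol_eq 𝓕 t x hu).symm
        exact (h2.congr h3).differentiableAt.differentiableWithinAt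
      · intro w hw
        have hw1 : (t, w) ∈ (𝓕.F.triv x.1).target := hw
        refine ⟨by rw [fvol_eq 𝓕 t x hw]; exact (𝓕.vol_hol x.1 t w hw1).2, ?_⟩
        rintro e' ⟨x', rfl⟩ h1
        have h2 : ((fibChart 𝓕.F t x).symm w).1 ∈ (𝓕.F.triv x'.1).source := h1
        rw [fibChart_symm_val 𝓕.F t x hw1] at h2
        have h3 : ∀ u ∈ (fibChart 𝓕.F t x).target,
            fibChart 𝓕.F t x' ((fibChart 𝓕.F t x).symm u) = trn 𝓕.F x.1 x'.1 (t, u) := by
          intro u hu
          have hu1 : (t, u) ∈ (𝓕.F.triv x.1).target := hu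
          rw [trn_apply, fibChart_apply, fibChart_symm_val 𝓕.F t x hu1]
        have h4 : (fun u => fibChart 𝓕.F t x' ((fibChart 𝓕.F t x).symm u)) =ᶠ[𝓝 w]
            fun u => trn 𝓕.F x.1 x'.1 (t, u) := by
          filter_upwards [(fibChart 𝓕.F t x).open_target.mem_nhds hw] with u hu
          exact h3 u hu
        rw [h4.fderiv_eq, fvol_eq 𝓕 t x hw]
        have h5 : fibChart 𝓕.F t x' ((fibChart 𝓕.F t x).symm w) ∈ (fibChart 𝓕.F t x').target :=
          (fibChart 𝓕.F t x').map_source h1
        rw [fvol_eq 𝓕 t x' h5, h3 w hw]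
        exact 𝓕.vol_law x.1 x'.1 t w hw1 h2 }

theorem k3_X (𝓕 : K3Family V D E) (t : D) : (𝓕.k3 t).X = Fib 𝓕.F t := rfl

end K3Family

/-- **Target of Phase 2.** In a holomorphic family of K3 surfaces with an elliptic member, which is
infinitesimally trivial in all directions only for a set of parameters with dense complement, the
elliptic members are dense and the Oka members form a residual set. -/
def Target2 : Prop :=
  ∀ (V : Type) [NormedAddCommGroup V] [NormedSpace ℂ V] [FiniteDimensional ℂ V] (D : Set V),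
    IsOpen D → IsPreconnected D → ∀ (E : Type) [TopologicalSpace E] [T2Space E]
    [SecondCountableTopology E] (𝓕 : K3Family V D E), (∃ t, Elliptic (𝓕.k3 t)) →
    Dense {t : D | ∃ v, ¬ InfTrivial 𝓕.F t v} →
    Dense {t : D | Elliptic (𝓕.k3 t)} ∧ {t : D | IsOka (Fib 𝓕.F t)} ∈ residual D

end Vale.Agent.P290.H95
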