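import Vale.Agent.P290.H805.Baire
import Vale.Agent.P290.H124.Cover
import Vale.Agent.P290.H124.Exist
import Vale.Agent.P290.H95.Goal

open Set Vale.Agent.P290.All Vale.Agent.P290.H124 Vale.Agent.P290.H805
open scoped Manifold ContDiff Topology

open Vale.Agent.P290.H95

/-- from the goal to the statement of the hand-in -/
theorem Vale.Agent.P290.H95.hand (h : Vale.Agent.P290.H95.Goal) :
    (∀ X : All.K3, Elliptic X → All.IsOka X.X) ∧
    (∀ (X : All.K3) (Y : Type) [TopologicalSpace Y] [ChartedSpace C2 Y] [IsManifold 𝓘(ℂ, C2) ω Y]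
      [T2Space Y] (p : X.X → Y), HolCover p → Elliptic X → All.IsOka Y) ∧
    ∀ (T E : Type) [TopologicalSpace T] [TopologicalSpace E] [SecondCountableTopology E]
      (F : Family T E), (∀ t, T2Space (Fib F t)) → (∀ t, CompactSpace (Fib F t)) →
      ∀ D : Set T, (∀ t ∈ D, ∃ (X : All.K3) (p : X.X → Fib F t), HolCover p ∧
          (Elliptic X ∨ IsKummer X.X)) →
        (∀ t ∈ D, All.IsOka (Fib F t)) ∧
        {t : closure D | All.IsOka (Fib F t.1)} ∈ residual (closure D) ∧
        (Dense D → {t | All.IsOka (Fib F t)} ∈ residual T) := by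
  have h1 : ∀ (X : All.K3) (Y : Type) [TopologicalSpace Y] [ChartedSpace C2 Y]
      [IsManifold 𝓘(ℂ, C2) ω Y] [T2Space Y] (p : X.X → Y), HolCover p →
      (Elliptic X ∨ IsKummer X.X) → All.IsOka Y := by
    intro X Y _ _ _ _ p hp hX
    have := X.manifold
    have := X.t2
    rcases hX with hX | hX
    · exact isOka_of_cover hp (h X hX)
    · exact isOka_of_cover hp (isOka_of_isKummer hX)
  refine ⟨h, fun X Y _ _ _ _ p hp hX => h1 X Y p hp (Or.inl hX), ?_⟩
  intro T E _ _ _ F h2 hc D hD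
  have h3 : ∀ t ∈ D, All.IsOka (Fib F t) := by
    intro t ht
    have := h2 t
    obtain ⟨X, p, hp, hX⟩ := hD t ht
    exact h1 X (Fib F t) p hp hX
  exact ⟨h3, residual_closure F h2 hc h3, fun hd => residual_oka F h2 hc (hd.mono h3)⟩
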